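import Crest.Agent.R35.Game

/-! Winning patterns on bitboards and a verified checker for a library of patterns. -/

set_option autoImplicit false

namespace Crest.Agent.R35

open Crest.CombinatoricsR.PolyominoGame

/-- the cell with bit index `i` (rows of length 32) -/
def cell (i : ℕ) : Cell := (((i % 32 : ℕ) : ℤ), ((i / 32 : ℕ) : ℤ))

theorem cell_inj {i j : ℕ} (h : cell i = cell j) : i = j := by
  simp only [cell, Prod.mk.injEq, Nat.cast_inj] at h
  omega

def Has (S : ℕ) (M : Set Cell) : Prop := ∀ i, S.testBit i = true → cell i ∈ M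
def Avoid (Z : ℕ) (B : Set Cell) : Prop := ∀ i, Z.testBit i = true → cell i ∉ B
def Narrow (X w : ℕ) : Prop := ∀ i, X.testBit i = true → i % 32 < w

/-- Maker, to move, owning `S` while Breaker owns nothing in `Z`, wins within `k` claims. -/
def Pat (S Z k : ℕ) : Prop :=
  ∀ M B : Set Cell, M.Finite → B.Finite → Has S M → Avoid Z B → ∀ k', k ≤ k' → W k' M B

/-- the same after any Breaker reply outside `I` -/
def Fam (S U I k : ℕ) : Prop :=
  ∀ M B : Set Cell, M.Finite → B.Finite → Has S M → Avoid U B → ∀ b, Avoid I {b} →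
    ∀ k', k ≤ k' → W k' M (insert b B)

theorem Pat.mono {S Z k k' : ℕ} (h : Pat S Z k) (hk : k ≤ k') : Pat S Z k' :=
  fun M B hM hB h1 h2 j hj => h M B hM hB h1 h2 j (hk.trans hj)

theorem Pat.fam {S Z k : ℕ} (h : Pat S Z k) : Fam S Z Z k := by
  intro M B hM hB h1 h2 b h3 j hj
  refine h M _ hM (hB.insert b) h1 (fun i hi hm => ?_) j hj
  rcases hm with hm | hm
  · exact h3 i hi hm
  · exact h2 i hi hm

theorem Fam.and {S U I S' U' I' k : ℕ} (h : Fam S U I k) (h' : Fam S' U' I' k) :
    Fam (Nat.lor S S') (Nat.lor U U') (Nat.land I I') k := by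
  intro M B hM hB h1 h2 b h3 j hj
  have or1 : ∀ a c i : ℕ, a.testBit i = true → (Nat.lor a c).testBit i = true := by
    intro a c i hi
    change (a ||| c).testBit i = true
    simp [hi]
  have or2 : ∀ a c i : ℕ, c.testBit i = true → (Nat.lor a c).testBit i = true := by
    intro a c i hi
    change (a ||| c).testBit i = true
    simp [hi]
  by_cases hI : Avoid I {b}
  · exact h M B hM hB (fun i hi => h1 i (or1 _ _ i hi)) (fun i hi => h2 i (or1 _ _ i hi)) b hI j hj
  · refine h' M B hM hB (fun i hi => h1 i (or2 _ _ i hi)) (fun i hi => h2 i (or2 _ _ i hi)) b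
      ?_ j hj
    intro i hi hb
    apply hI
    intro i' hi' hb'
    have e : i' = i := cell_inj ((Set.mem_singleton_iff.1 hb').trans
      (Set.mem_singleton_iff.1 hb).symm)
    subst e
    refine h3 i' ?_ hb
    change (I &&& I').testBit i' = true
    simp [hi, hi']

theorem testBit_one_shift (m i : ℕ) : (Nat.shiftLeft 1 m).testBit i = decide (m = i) := by
  change (1 <<< m).testBit i = _
  rw [Nat.one_shiftLeft, Nat.testBit_two_pow]

theorem Fam.move {S U I k : ℕ} (h : Fam S U I k) (m : ℕ) :
    Pat (Nat.xor (Nat.lor (Nat.lor S I) (Nat.shiftLeft 1 m)) (Nat.shiftLeft 1 m))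
      (Nat.lor U (Nat.shiftLeft 1 m)) (k + 1) := by
  intro M B hM hB h1 h2 j hj
  obtain ⟨j, rfl⟩ : ∃ j', j = j' + 1 := ⟨j - 1, by omega⟩
  have hS : ∀ i, i ≠ m → S.testBit i = true ∨ I.testBit i = true → cell i ∈ M := by
    intro i him hi
    apply h1
    change (((S ||| I) ||| Nat.shiftLeft 1 m) ^^^ Nat.shiftLeft 1 m).testBit i = true
    have : decide (m = i) = false := by simp; omega
    simp only [Nat.testBit_xor, Nat.testBit_or, testBit_one_shift, this]
    rcases hi with hi | hi <;> simp [hi]
  have hc : cell m ∉ B := by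
    apply h2
    change (U ||| Nat.shiftLeft 1 m).testBit m = true
    simp only [Nat.testBit_or, testBit_one_shift]
    simp
  obtain ⟨m', hm1, hm2, hm3⟩ : ∃ m', m' ∉ M ∧ m' ∉ B ∧ cell m ∈ insert m' M := by
    by_cases hcm : cell m ∈ M
    · obtain ⟨m', a1, a2⟩ := exists_free hM hB
      exact ⟨m', a1, a2, Or.inr hcm⟩
    · exact ⟨cell m, hcm, hc, Or.inl rfl⟩
  refine ⟨m', hm1, hm2, fun b hb1 hb2 => ?_⟩
  refine h _ B (hM.insert m') hB (fun i hi => ?_) (fun i hi => h2 i ?_) b (fun i hi hb => ?_) j
    (by omega)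
  · by_cases him : i = m
    · exact him ▸ hm3
    · exact Or.inr (hS i him (Or.inl hi))
  · change (U ||| Nat.shiftLeft 1 m).testBit i = true
    simp [hi]
  · apply hb1
    rw [← Set.mem_singleton_iff.1 hb]
    by_cases him : i = m
    · exact him ▸ hm3
    · exact Or.inr (hS i him (Or.inr hi))

theorem testBit_shift (X s i : ℕ) : (Nat.shiftLeft X s).testBit (i + s) = X.testBit i := by
  change (X <<< s).testBit (i + s) = _
  simp [Nat.testBit_shiftLeft]

theorem Pat.shift {S Z k w s : ℕ} (h : Pat S Z k) (hS : Narrow S w) (hZ : Narrow Z w)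
    (hs : s % 32 + w ≤ 32) : Pat (Nat.shiftLeft S s) (Nat.shiftLeft Z s) k := by
  intro M B hM hB h1 h2 j hj
  have hc : ∀ i, i % 32 < w → cell (i + s) = (Equiv.addRight (cell s)) (cell i) := by
    intro i hi
    simp only [cell, Equiv.coe_addRight, Prod.mk_add_mk, Prod.mk.injEq]
    constructor <;> omega
  have := W_map (Equiv.addRight (cell s)) (copy_translate _) j _ _
    (h ((Equiv.addRight (cell s)) ⁻¹' M) ((Equiv.addRight (cell s)) ⁻¹' B)
      (hM.preimage (Equiv.injective _).injOn) (hB.preimage (Equiv.injective _).injOn)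
      (fun i hi => by
        rw [Set.mem_preimage, ← hc i (hS i hi)]
        exact h1 _ (by rw [testBit_shift]; exact hi))
      (fun i hi => by
        rw [Set.mem_preimage, ← hc i (hZ i hi)]
        exact h2 _ (by rw [testBit_shift]; exact hi)) j hj)
  rwa [Equiv.image_preimage, Equiv.image_preimage] at this

/-- the bitboard of the columns below `w` in the first 32 rows -/
def colmask (w : ℕ) : ℕ :=
  Nat.sub (Nat.shiftLeft 0x100000001000000010000000100000001000000010000000100000001000000010000000100000001000000010000000100000001000000010000000100000001000000010000000100000001000000010000000100000001000000010000000100000001000000010000000100000001000000010000000100000001 w)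
    0x100000001000000010000000100000001000000010000000100000001000000010000000100000001000000010000000100000001000000010000000100000001000000010000000100000001000000010000000100000001000000010000000100000001000000010000000100000001000000010000000100000001

theorem colmask_aux : ∀ w < 33, colmask w >>> 1024 = 0 ∧
    ∀ r < 32, (colmask w >>> (32 * r)) % 2 ^ 32 < 2 ^ w := by
  decide +kernel

theorem lt_of_testBit {X n i : ℕ} (h : X >>> n = 0) (hi : X.testBit i = true) : i < n := by
  by_contra hlt
  have : (X >>> n).testBit (i - n) = true := by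
    rw [Nat.testBit_shiftRight]
    have : n + (i - n) = i := by omega
    rw [this]; exact hi
  rw [h] at this
  simp at this

theorem narrow_of_check {X w : ℕ} (h : Nat.beq (Nat.land X (colmask w)) X = true) :
    Narrow X w := by
  intro i hi
  by_cases hw : w < 33
  · have e : X &&& colmask w = X := Nat.eq_of_beq_eq_true h
    rw [← e, Nat.testBit_and, Bool.and_eq_true] at hi
    have hi' : i < 1024 := lt_of_testBit (colmask_aux w hw).1 hi.2
    have h1 := (colmask_aux w hw).2 (i / 32) (by omega)
    by_contra hlt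
    have h2 := Nat.testBit_lt_two_pow (lt_of_lt_of_le h1
      (Nat.pow_le_pow_right (by norm_num) (show w ≤ i % 32 by omega)))
    rw [Nat.testBit_mod_two_pow, Nat.testBit_shiftRight] at h2
    have e2 : 32 * (i / 32) + i % 32 = i := by omega
    have e3 : i % 32 < 32 := by omega
    rw [e2, hi.2] at h2
    simp [e3] at h2
  · omega

/-- the eight orientations of Snaky -/
def shape (o : ℕ) : ℕ :=
  Nat.land (Nat.shiftRight 0x2000000020000000200000003000000010000000100000001000000010000000300000002000000010000000300000002000000020000000200000002000000030000000100000001000000010000000000000000000000000000001e000000030000000000000000000000000000000f00000018000000000000000000000000000000030000001e000000000000000000000000000000180000000f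
    (Nat.mul o 160)) 0xffffffffffffffffffffffffffffffffffffffff

theorem shape_narrow : ∀ o < 8, Narrow (shape o) 5 := by
  intro o ho
  apply narrow_of_check
  revert o
  decide +kernel

theorem pat_of_copy {A : ℕ} (h : ∀ M, Has A M → ContainsCopy M) : Pat A 0 0 :=
  fun M B hM hB h1 _ j _ => W_of_copy j M B hM hB (h M h1)

theorem shape_pat : ∀ o < 8, Pat (shape o) 0 0 := by
  intro o ho
  apply pat_of_copy
  intro M h
  interval_cases o
  · refine ⟨(0, 0), 1, 1, by simp, by simp, Or.inl ?_⟩
    simp only [snaky, Finset.mem_insert, Finset.mem_singleton, forall_eq_or_imp, forall_eq]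
    exact ⟨h 0 (by decide +kernel), h 1 (by decide +kernel), h 2 (by decide +kernel),
      h 3 (by decide +kernel), h 35 (by decide +kernel), h 36 (by decide +kernel)⟩
  · refine ⟨(4, 0), -1, 1, by simp, by simp, Or.inl ?_⟩
    simp only [snaky, Finset.mem_insert, Finset.mem_singleton, forall_eq_or_imp, forall_eq]
    exact ⟨h 4 (by decide +kernel), h 3 (by decide +kernel), h 2 (by decide +kernel),
      h 1 (by decide +kernel), h 33 (by decide +kernel), h 32 (by decide +kernel)⟩
  · refine ⟨(0, 1), 1, -1, by simp, by simp, Or.inl ?_⟩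
    simp only [snaky, Finset.mem_insert, Finset.mem_singleton, forall_eq_or_imp, forall_eq]
    exact ⟨h 32 (by decide +kernel), h 33 (by decide +kernel), h 34 (by decide +kernel),
      h 35 (by decide +kernel), h 3 (by decide +kernel), h 4 (by decide +kernel)⟩
  · refine ⟨(4, 1), -1, -1, by simp, by simp, Or.inl ?_⟩
    simp only [snaky, Finset.mem_insert, Finset.mem_singleton, forall_eq_or_imp, forall_eq]
    exact ⟨h 36 (by decide +kernel), h 35 (by decide +kernel), h 34 (by decide +kernel),
      h 33 (by decide +kernel), h 1 (by decide +kernel), h 0 (by decide +kernel)⟩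
  · refine ⟨(0, 0), 1, 1, by simp, by simp, Or.inr ?_⟩
    simp only [snaky, Finset.mem_insert, Finset.mem_singleton, forall_eq_or_imp, forall_eq]
    exact ⟨h 0 (by decide +kernel), h 32 (by decide +kernel), h 64 (by decide +kernel),
      h 96 (by decide +kernel), h 97 (by decide +kernel), h 129 (by decide +kernel)⟩
  · refine ⟨(1, 0), -1, 1, by simp, by simp, Or.inr ?_⟩
    simp only [snaky, Finset.mem_insert, Finset.mem_singleton, forall_eq_or_imp, forall_eq]
    exact ⟨h 1 (by decide +kernel), h 33 (by decide +kernel), h 65 (by decide +kernel),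
      h 97 (by decide +kernel), h 96 (by decide +kernel), h 128 (by decide +kernel)⟩
  · refine ⟨(0, 4), 1, -1, by simp, by simp, Or.inr ?_⟩
    simp only [snaky, Finset.mem_insert, Finset.mem_singleton, forall_eq_or_imp, forall_eq]
    exact ⟨h 128 (by decide +kernel), h 96 (by decide +kernel), h 64 (by decide +kernel),
      h 32 (by decide +kernel), h 33 (by decide +kernel), h 1 (by decide +kernel)⟩
  · refine ⟨(1, 4), -1, -1, by simp, by simp, Or.inr ?_⟩
    simp only [snaky, Finset.mem_insert, Finset.mem_singleton, forall_eq_or_imp, forall_eq]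
    exact ⟨h 129 (by decide +kernel), h 97 (by decide +kernel), h 65 (by decide +kernel),
      h 33 (by decide +kernel), h 32 (by decide +kernel), h 0 (by decide +kernel)⟩

/-- the copy of Snaky encoded by the low 13 bits of `p` -/
def place (p : ℕ) : ℕ :=
  Nat.shiftLeft (shape (Nat.mod p 8))
    (Nat.add (Nat.mod (Nat.mod (Nat.shiftRight p 3) 1024) 28)
      (Nat.mul 32 (Nat.div (Nat.mod (Nat.shiftRight p 3) 1024) 28)))

theorem place_pat (p : ℕ) : Pat (place p) 0 0 := by
  have ho : Nat.mod p 8 < 8 := Nat.mod_lt _ (by norm_num)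
  have := (shape_pat _ ho).shift (s := Nat.add (Nat.mod (Nat.mod (Nat.shiftRight p 3) 1024) 28)
      (Nat.mul 32 (Nat.div (Nat.mod (Nat.shiftRight p 3) 1024) 28))) (shape_narrow _ ho)
      (fun i hi => by simp at hi) (by
        generalize Nat.mod (Nat.shiftRight p 3) 1024 = v
        change (v % 28 + 32 * (v / 28)) % 32 + 5 ≤ 32
        omega)
  have e : ∀ s, Nat.shiftLeft 0 s = 0 := fun s => Nat.zero_shiftLeft s
  rw [e] at this
  exact this

/-- five cells of a copy and the sixth free -/
theorem five_pat (p y : ℕ) :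
    Pat (Nat.xor (Nat.lor (place p) (Nat.shiftLeft 1 y)) (Nat.shiftLeft 1 y))
      (Nat.shiftLeft 1 y) 1 := by
  have := (place_pat p).fam.move y
  have e1 : ∀ a : ℕ, Nat.lor a 0 = a := fun a => Nat.or_zero a
  have e2 : ∀ a : ℕ, Nat.lor 0 a = a := fun a => Nat.zero_or a
  rw [e1, e2] at this
  exact this

/-- one forcing step put in front of a winning sequence -/
def step (p yb xb S Z : ℕ) (ih : ℕ → ℕ → ℕ → Bool) : Bool :=
  ih (Nat.shiftRight p 33)
    (Nat.xor (Nat.lor (Nat.lor (Nat.lor (Nat.xor (Nat.lor (place p) yb) yb) S) (Nat.land yb Z)) xb)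
      xb)
    (Nat.lor (Nat.lor yb Z) xb)

/-- a sequence of `n` forcing steps -/
noncomputable def chain (c : ℕ → ℕ → Bool) (n : ℕ) : ℕ → ℕ → ℕ → Bool :=
  Nat.rec (motive := fun _ => ℕ → ℕ → ℕ → Bool) (fun _ S Z => c S Z)
    (fun _ ih p S Z => step p (Nat.shiftLeft 1 (Nat.mod (Nat.shiftRight p 13) 1024))
      (Nat.shiftLeft 1 (Nat.mod (Nat.shiftRight p 23) 1024)) S Z ih) n

theorem chain_sound (c : ℕ → ℕ → Bool) (n : ℕ) : ∀ p S Z k, 1 ≤ k → Pat S Z k →
    chain c n p S Z = true → ∃ S' Z', Pat S' Z' (k + n) ∧ c S' Z' = true := by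
  induction n with
  | zero => intro p S Z k _ h hc; exact ⟨S, Z, h, hc⟩
  | succ n ih =>
    intro p S Z k hk h hc
    have h1 := (((five_pat p (Nat.mod (Nat.shiftRight p 13) 1024)).mono hk).fam.and h.fam).move
      (Nat.mod (Nat.shiftRight p 23) 1024)
    obtain ⟨S', Z', h2, h3⟩ := ih _ _ _ (k + 1) (by omega) h1 hc
    exact ⟨S', Z', h2.mono (by omega), h3⟩

/-- the library: a search tree of patterns with their derivations -/
inductive T : Type
  | leaf (S Z k w m f : ℕ) (r : List ℕ) : T
  | node (key : ℕ) (l r : T) : T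

noncomputable def T.get (t : T) (i : ℕ) (c : ℕ → ℕ → ℕ → ℕ → Bool) : Bool :=
  T.rec (motive := fun _ => Bool) (fun S Z k w _ _ _ => c S Z k w)
    (fun key _ _ gl gr => Bool.rec gl gr (Nat.ble key i)) t

def T.Mem (S Z k w : ℕ) : T → Prop
  | .leaf S' Z' k' w' _ _ _ => S = S' ∧ Z = Z' ∧ k = k' ∧ w = w'
  | .node _ l r => T.Mem S Z k w l ∨ T.Mem S Z k w r

theorem T.get_sound (i : ℕ) (c : ℕ → ℕ → ℕ → ℕ → Bool) (t : T) (h : t.get i c = true) :
    ∃ S Z k w, t.Mem S Z k w ∧ c S Z k w = true := by
  induction t with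
  | leaf S Z k w m f r => exact ⟨S, Z, k, w, ⟨rfl, rfl, rfl, rfl⟩, h⟩
  | node key l r ihl ihr =>
    have h' : Bool.rec (motive := fun _ => Bool) (l.get i c) (r.get i c) (Nat.ble key i) = true := h
    cases hb : Nat.ble key i
    · rw [hb] at h'
      obtain ⟨S, Z, k, w, a, b⟩ := ihl h'
      exact ⟨S, Z, k, w, Or.inl a, b⟩
    · rw [hb] at h'
      obtain ⟨S, Z, k, w, a, b⟩ := ihr h'
      exact ⟨S, Z, k, w, Or.inr a, b⟩

/-- conjunction that evaluates its first argument first -/
noncomputable def band (a b : Bool) : Bool := Bool.rec false b a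

theorem band_true {a b : Bool} (h : band a b = true) : a = true ∧ b = true := by
  cases a
  · exact absurd h (by simp [band])
  · exact ⟨rfl, h⟩

noncomputable def itemRef (t : T) (ke i s : ℕ) (c : ℕ → ℕ → Bool) : Bool :=
  t.get i fun S Z k w => band (Nat.ble (Nat.succ k) ke)
    (band (Nat.ble (Nat.add (Nat.mod s 32) w) 32) (c (Nat.shiftLeft S s) (Nat.shiftLeft Z s)))

noncomputable def itemChain (ke n p yb : ℕ) (c : ℕ → ℕ → Bool) : Bool :=
  band (Nat.ble (Nat.add n 2) ke)
    (chain c n (Nat.shiftRight p 23) (Nat.xor (Nat.lor (place p) yb) yb) yb)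

/-- one winning answer: a shifted library pattern, or a forcing sequence -/
noncomputable def item (t : T) (ke it : ℕ) (c : ℕ → ℕ → Bool) : Bool :=
  Bool.rec
    (itemChain ke (Nat.mod (Nat.shiftRight it 1) 32) (Nat.shiftRight it 6)
      (Nat.shiftLeft 1 (Nat.mod (Nat.shiftRight it 19) 1024)) c)
    (itemRef t ke (Nat.mod (Nat.shiftRight it 1) 65536) (Nat.shiftRight it 17) c)
    (Nat.beq (Nat.mod it 2) 0)

/-- the patterns of depth below `n` are valid -/
def Good (t : T) (n : ℕ) : Prop :=
  ∀ S Z k w, t.Mem S Z k w → k < n → Pat S Z k ∧ Narrow S w ∧ Narrow Z w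

theorem item_sound {t : T} {k it : ℕ} {c : ℕ → ℕ → Bool} (hg : Good t (k + 1))
    (h : item t (k + 1) it c = true) : ∃ S Z, Pat S Z k ∧ c S Z = true := by
  unfold item at h
  cases hb : Nat.beq (Nat.mod it 2) 0
  · rw [hb] at h
    obtain ⟨h1, h2⟩ := band_true h
    have h1' : Nat.mod (Nat.shiftRight it 1) 32 + 2 ≤ k + 1 := Nat.le_of_ble_eq_true h1
    obtain ⟨S, Z, h3, h4⟩ := chain_sound c _ _ _ _ 1 le_rfl (five_pat _ _) h2
    exact ⟨S, Z, h3.mono (by omega), h4⟩
  · rw [hb] at h
    obtain ⟨S, Z, k', w, hm, h1⟩ := T.get_sound _ _ _ h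
    obtain ⟨h1, h2⟩ := band_true h1
    obtain ⟨h2, h3⟩ := band_true h2
    have h1' : k' + 1 ≤ k + 1 := Nat.le_of_ble_eq_true h1
    obtain ⟨a1, a2, a3⟩ := hg S Z k' w hm (by omega)
    exact ⟨_, _, (a1.shift a2 a3 (Nat.le_of_ble_eq_true h2)).mono (by omega), h3⟩

noncomputable def items (t : T) (ke : ℕ) (c : ℕ → ℕ → ℕ → Bool) (l : List ℕ) :
    ℕ → ℕ → ℕ → Bool :=
  List.rec (motive := fun _ => ℕ → ℕ → ℕ → Bool) (fun S U I => c S U I)
    (fun it _ ih S U I => item t ke it fun S' Z' =>
      ih (Nat.lor S S') (Nat.lor U Z') (Nat.land I Z')) l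

theorem items_sound {t : T} {k : ℕ} {c : ℕ → ℕ → ℕ → Bool} (hg : Good t (k + 1)) (l : List ℕ) :
    ∀ S U I, Fam S U I k → items t (k + 1) c l S U I = true →
      ∃ S' U' I', Fam S' U' I' k ∧ c S' U' I' = true := by
  induction l with
  | nil => intro S U I h hc; exact ⟨S, U, I, h, hc⟩
  | cons it l ih =>
    intro S U I h hc
    obtain ⟨S', Z', h1, h2⟩ := item_sound hg hc
    exact ih _ _ _ (h.and h1.fam) h2

/-- a whole family of answers -/
noncomputable def family (t : T) (ke f : ℕ) (r : List ℕ) (c : ℕ → ℕ → ℕ → Bool) : Bool :=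
  item t ke f fun S Z => items t ke c r S Z Z

theorem family_sound {t : T} {k f : ℕ} {r : List ℕ} {c : ℕ → ℕ → ℕ → Bool}
    (hg : Good t (k + 1)) (h : family t (k + 1) f r c = true) :
    ∃ S U I, Fam S U I k ∧ c S U I = true := by
  obtain ⟨S, Z, h1, h2⟩ := item_sound hg h
  exact items_sound hg r _ _ _ h1.fam h2

noncomputable def final (S Z mb S1 U1 I1 : ℕ) : Bool :=
  band (Nat.beq (Nat.xor (Nat.lor (Nat.lor S1 I1) mb) mb) S) (Nat.beq (Nat.lor U1 mb) Z)

/-- the check of one library entry against the library `t` -/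
noncomputable def check (t : T) (S Z k w m f : ℕ) (r : List ℕ) : Bool :=
  band (Nat.ble 1 k) (band (Nat.beq (Nat.land (Nat.lor S Z) (colmask w)) (Nat.lor S Z))
    (family t k f r (final S Z (Nat.shiftLeft 1 m))))

theorem check_sound {t : T} {S Z k w m f : ℕ} {r : List ℕ} (hg : Good t k)
    (h : check t S Z k w m f r = true) : Pat S Z k ∧ Narrow S w ∧ Narrow Z w := by
  obtain ⟨h1, h0⟩ := band_true h
  obtain ⟨h2, h3⟩ := band_true h0
  have h1' : 1 ≤ k := Nat.le_of_ble_eq_true h1
  obtain ⟨k, rfl⟩ : ∃ k', k = k' + 1 := ⟨k - 1, by omega⟩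
  have hn := narrow_of_check h2
  obtain ⟨S1, U1, I1, h4, h5⟩ := family_sound hg h3
  obtain ⟨h5, h6⟩ := band_true h5
  have h7 := h4.move m
  rw [Nat.eq_of_beq_eq_true h5, Nat.eq_of_beq_eq_true h6] at h7
  refine ⟨h7, fun i hi => hn i ?_, fun i hi => hn i ?_⟩
  · change (S ||| Z).testBit i = true
    simp [hi]
  · change (S ||| Z).testBit i = true
    simp [hi]

/-- all entries of `t'` pass the check against `t` -/
noncomputable def allOk (t t' : T) : Bool :=
  T.rec (motive := fun _ => Bool) (fun S Z k w m f r => check t S Z k w m f r)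
    (fun _ _ _ gl gr => band gl gr) t'

/-- every entry of `t'` has passed the check against `t` -/
def Checked (t t' : T) : Prop :=
  ∀ S Z k w, t'.Mem S Z k w → ∃ m f r, check t S Z k w m f r = true

theorem checked_of_allOk {t : T} (t' : T) (h : allOk t t' = true) : Checked t t' := by
  induction t' with
  | leaf S Z k w m f r =>
    rintro S' Z' k' w' ⟨rfl, rfl, rfl, rfl⟩
    exact ⟨m, f, r, h⟩
  | node key l r ihl ihr =>
    obtain ⟨h1, h2⟩ := band_true (a := allOk t l) (b := allOk t r) h
    rintro S Z k w (hm | hm)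
    · exact ihl h1 S Z k w hm
    · exact ihr h2 S Z k w hm

theorem Checked.node {t l r : T} (key : ℕ) (hl : Checked t l) (hr : Checked t r) :
    Checked t (T.node key l r) := by
  rintro S Z k w (hm | hm)
  · exact hl S Z k w hm
  · exact hr S Z k w hm

theorem good_of_checked {t : T} (h : Checked t t) (n : ℕ) : Good t n := by
  induction n with
  | zero => intro S Z k w _ hk; omega
  | succ n ih =>
    intro S Z k w hm hk
    obtain ⟨m, f, r, hc⟩ := h S Z k w hm
    exact check_sound (fun S' Z' k' w' hm' hk' => ih S' Z' k' w' hm' (by omega)) hc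

noncomputable def rootFinal (cb oct S1 I1 : ℕ) : Bool :=
  band (Nat.beq (Nat.lor S1 cb) cb) (band (Nat.beq (Nat.lor (Nat.land I1 oct) cb) cb)
    (Nat.beq (Nat.shiftRight I1 1024) 0))

/-- the check of the answers to the first reply -/
noncomputable def rootCheck (t : T) (k c oct f : ℕ) (r : List ℕ) : Bool :=
  family t (k + 1) f r fun S1 _ I1 => rootFinal (Nat.shiftLeft 1 c) oct S1 I1

theorem root_sound {t : T} (h : Checked t t) (k c oct f : ℕ) (r : List ℕ)
    (hoct : ∀ i < 1024, c / 32 ≤ i / 32 → i / 32 + c % 32 ≤ i % 32 + c / 32 →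
      oct.testBit i = true)
    (hr : rootCheck t k c oct f r = true) : W (k + 1) ∅ ∅ := by
  obtain ⟨S1, U1, I1, h1, h2⟩ := family_sound (good_of_checked h (k + 1)) hr
  obtain ⟨h2, h3⟩ := band_true h2
  obtain ⟨h3, h4⟩ := band_true h3
  have e2 : S1 ||| Nat.shiftLeft 1 c = Nat.shiftLeft 1 c := Nat.eq_of_beq_eq_true h2
  have e3 : (I1 &&& oct) ||| Nat.shiftLeft 1 c = Nat.shiftLeft 1 c := Nat.eq_of_beq_eq_true h3
  have e4 : I1 >>> 1024 = 0 := Nat.eq_of_beq_eq_true h4
  apply W_start k (cell c)
  intro b hb hb1 hb2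
  have := h1 {cell c} ∅ (Set.finite_singleton _) Set.finite_empty (fun i hi => by
      have : (S1 ||| Nat.shiftLeft 1 c).testBit i = true := by simp [hi]
      rw [e2, testBit_one_shift] at this
      have e : c = i := by simpa using this
      rw [e]; rfl) (fun i _ => by simp) b (fun i hi hbi => by
      have hbi' : cell i = b := hbi
      have hi' : i < 1024 := lt_of_testBit e4 hi
      subst hbi'
      simp only [cell] at hb1 hb2
      have ho := hoct i hi' (by omega) (by omega)
      have : ((I1 &&& oct) ||| Nat.shiftLeft 1 c).testBit i = true := by simp [hi, ho]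
      rw [e3, testBit_one_shift] at this
      have e : c = i := by simpa using this
      exact hb (by rw [e])) k le_rfl
  simpa using this

end Crest.Agent.R35
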