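import Crest.Prelude.Def_PolyominoGame

/-! The Maker–Breaker game for Snaky as a recursive predicate, its invariance under board
symmetries, and extraction of a Maker policy. -/

set_option autoImplicit false

namespace Crest.Agent.R35

open Crest.CombinatoricsR.PolyominoGame

abbrev Cell := ℤ × ℤ

/-- `W k M B`: Maker owns `M`, Breaker owns `B`, Maker is to move and can make `k` more legal
claims against all legal replies so that after them his set contains a copy of Snaky. -/
def W : ℕ → Set Cell → Set Cell → Prop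
  | 0, M, _ => ContainsCopy M
  | k + 1, M, B => ∃ m, m ∉ M ∧ m ∉ B ∧
      ∀ b, b ∉ insert m M → b ∉ B → W k (insert m M) (insert b B)

theorem containsCopy_mono {X Y : Set Cell} (h : X ⊆ Y) (hX : ContainsCopy X) :
    ContainsCopy Y := by
  obtain ⟨t, e1, e2, h1, h2, h3⟩ := hX
  refine ⟨t, e1, e2, h1, h2, ?_⟩
  rcases h3 with h3 | h3
  · exact Or.inl fun p hp => h (h3 p hp)
  · exact Or.inr fun p hp => h (h3 p hp)

theorem exists_free {M B : Set Cell} (hM : M.Finite) (hB : B.Finite) : ∃ m, m ∉ M ∧ m ∉ B := by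
  obtain ⟨m, hm⟩ := (hM.union hB).exists_notMem
  exact ⟨m, fun h => hm (Or.inl h), fun h => hm (Or.inr h)⟩

theorem W_of_copy (k : ℕ) : ∀ M B : Set Cell, M.Finite → B.Finite → ContainsCopy M → W k M B := by
  induction k with
  | zero => intro M B _ _ h; exact h
  | succ k ih =>
    intro M B hM hB h
    obtain ⟨m, h1, h2⟩ := exists_free hM hB
    exact ⟨m, h1, h2, fun b _ _ => ih _ _ (hM.insert m) (hB.insert b)
      (containsCopy_mono (Set.subset_insert _ _) h)⟩

theorem W_map (g : Cell ≃ Cell) (hg : ∀ X, ContainsCopy X → ContainsCopy (g '' X)) (k : ℕ) :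
    ∀ M B : Set Cell, W k M B → W k (g '' M) (g '' B) := by
  induction k with
  | zero => intro M B h; exact hg M h
  | succ k ih =>
    rintro M B ⟨m, h1, h2, h3⟩
    refine ⟨g m, ?_, ?_, fun b hb1 hb2 => ?_⟩
    · rwa [g.injective.mem_set_image]
    · rwa [g.injective.mem_set_image]
    · have hb : b = g (g.symm b) := (g.apply_symm_apply b).symm
      have := ih _ _ (h3 (g.symm b) (fun h => hb1 (by
        rw [← Set.image_insert_eq, hb]; exact Set.mem_image_of_mem _ h))
        (fun h => hb2 (by rw [hb]; exact Set.mem_image_of_mem _ h)))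
      rw [Set.image_insert_eq, Set.image_insert_eq, ← hb] at this
      exact this

theorem copy_translate (v : Cell) (X : Set Cell) (h : ContainsCopy X) :
    ContainsCopy ((Equiv.addRight v) '' X) := by
  obtain ⟨t, e1, e2, h1, h2, h3⟩ := h
  refine ⟨t + v, e1, e2, h1, h2, ?_⟩
  rcases h3 with h3 | h3
  · refine Or.inl fun p hp => ⟨_, h3 p hp, ?_⟩
    ext <;> simp <;> ring
  · refine Or.inr fun p hp => ⟨_, h3 p hp, ?_⟩
    ext <;> simp <;> ring

/-- reflection in the vertical axis -/
def flipX : Cell ≃ Cell := Equiv.prodCongr (Equiv.neg ℤ) (Equiv.refl ℤ)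
/-- reflection in the horizontal axis -/
def flipY : Cell ≃ Cell := Equiv.prodCongr (Equiv.refl ℤ) (Equiv.neg ℤ)
/-- reflection in the diagonal -/
def flipD : Cell ≃ Cell := Equiv.prodComm ℤ ℤ

theorem copy_flipX (X : Set Cell) (h : ContainsCopy X) : ContainsCopy (flipX '' X) := by
  obtain ⟨t, e1, e2, h1, h2, h3⟩ := h
  refine ⟨(-t.1, t.2), -e1, e2, by omega, h2, ?_⟩
  rcases h3 with h3 | h3
  · refine Or.inl fun p hp => ⟨_, h3 p hp, ?_⟩
    ext <;> simp [flipX]; ring
  · refine Or.inr fun p hp => ⟨_, h3 p hp, ?_⟩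
    ext <;> simp [flipX]; ring

theorem copy_flipY (X : Set Cell) (h : ContainsCopy X) : ContainsCopy (flipY '' X) := by
  obtain ⟨t, e1, e2, h1, h2, h3⟩ := h
  refine ⟨(t.1, -t.2), e1, -e2, h1, by omega, ?_⟩
  rcases h3 with h3 | h3
  · refine Or.inl fun p hp => ⟨_, h3 p hp, ?_⟩
    ext <;> simp [flipY]; ring
  · refine Or.inr fun p hp => ⟨_, h3 p hp, ?_⟩
    ext <;> simp [flipY]; ring

theorem copy_flipD (X : Set Cell) (h : ContainsCopy X) : ContainsCopy (flipD '' X) := by
  obtain ⟨t, e1, e2, h1, h2, h3⟩ := h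
  refine ⟨(t.2, t.1), e2, e1, h2, h1, ?_⟩
  rcases h3 with h3 | h3
  · refine Or.inr fun p hp => ⟨_, h3 p hp, ?_⟩
    ext <;> simp [flipD]
  · refine Or.inl fun p hp => ⟨_, h3 p hp, ?_⟩
    ext <;> simp [flipD]

/-- It is enough to answer the first replies that lie in one octant around the first claim. -/
theorem W_start (k : ℕ) (c : Cell)
    (h : ∀ b : Cell, b ≠ c → c.2 ≤ b.2 → b.2 - c.2 ≤ b.1 - c.1 → W k {c} {b}) :
    W (k + 1) ∅ ∅ := by
  have h0 : ∀ x y : ℤ, (x, y) ≠ ((0, 0) : Cell) → 0 ≤ y → y ≤ x → W k {(0, 0)} {(x, y)} := by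
    intro x y hne h1 h2
    have := W_map (Equiv.addRight (-c)) (copy_translate _) k _ _
      (h ((x, y) + c) (by
        intro h; apply hne
        have : ((x, y) : Cell) = 0 := by simpa using h
        exact this) (by simp; omega) (by simp; omega))
    have e : ((0, 0) : Cell) = 0 := rfl
    rw [e]
    simpa using this
  have h1 : ∀ x y : ℤ, (x, y) ≠ ((0, 0) : Cell) → 0 ≤ y → 0 ≤ x → W k {(0, 0)} {(x, y)} := by
    intro x y hne hy hx
    rcases le_total y x with h | h
    · exact h0 x y hne hy h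
    · have := W_map flipD copy_flipD k _ _ (h0 y x (by
        intro h; apply hne; simp at h ⊢; omega) hx h)
      simpa [flipD] using this
  have h2 : ∀ x y : ℤ, (x, y) ≠ ((0, 0) : Cell) → 0 ≤ y → W k {(0, 0)} {(x, y)} := by
    intro x y hne hy
    rcases le_total 0 x with h | h
    · exact h1 x y hne hy h
    · have := W_map flipX copy_flipX k _ _ (h1 (-x) y (by
        intro h; apply hne; simp at h ⊢; omega) hy (by omega))
      simpa [flipX] using this
  have h3 : ∀ x y : ℤ, (x, y) ≠ ((0, 0) : Cell) → W k {(0, 0)} {(x, y)} := by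
    intro x y hne
    rcases le_total 0 y with h | h
    · exact h2 x y hne h
    · have := W_map flipY copy_flipY k _ _ (h2 x (-y) (by
        intro h; apply hne; simp at h ⊢; omega) (by omega))
      simpa [flipY] using this
  refine ⟨(0, 0), by simp, by simp, fun b hb _ => ?_⟩
  have := h3 b.1 b.2 (by simpa using hb)
  simpa using this

/-! ### From the predicate to a policy -/

open Classical in
/-- the move chosen in a won position with `k + 1` claims left -/
noncomputable def strat (k : ℕ) (M B : Set Cell) : Cell :=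
  if h : W (k + 1) M B then Classical.choose h else (0, 0)

theorem strat_spec {k : ℕ} {M B : Set Cell} (h : W (k + 1) M B) :
    strat k M B ∉ M ∧ strat k M B ∉ B ∧
      ∀ b, b ∉ insert (strat k M B) M → b ∉ B → W k (insert (strat k M B) M) (insert b B) := by
  unfold strat
  rw [dif_pos h]
  exact Classical.choose_spec h

/-- Breaker's cells after `i` replies -/
def bseq (b : ℕ → Cell) : ℕ → Set Cell
  | 0 => ∅
  | i + 1 => insert (b i) (bseq b i)

/-- Maker's cells after `i` claims -/
noncomputable def mseq (n : ℕ) (b : ℕ → Cell) : ℕ → Set Cell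
  | 0 => ∅
  | i + 1 => insert (strat (n - i) (mseq n b i) (bseq b i)) (mseq n b i)

theorem seq_congr (n : ℕ) (b b' : ℕ → Cell) (i : ℕ) (h : ∀ j, j < i → b j = b' j) :
    bseq b i = bseq b' i ∧ mseq n b i = mseq n b' i := by
  induction i with
  | zero => exact ⟨rfl, rfl⟩
  | succ i ih =>
    obtain ⟨h1, h2⟩ := ih fun j hj => h j (by omega)
    simp only [bseq, mseq, h1, h2, h i (by omega), and_self]

/-- the policy -/
noncomputable def policy (n : ℕ) (l : List Cell) : Cell :=
  strat (n - l.length) (mseq n (fun j => l.getD j (0, 0)) l.length)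
    (bseq (fun j => l.getD j (0, 0)) l.length)

theorem makerClaim_policy (n : ℕ) (b : ℕ → Cell) (k : ℕ) :
    makerClaim (policy n) b k = strat (n - k) (mseq n b k) (bseq b k) := by
  have := seq_congr n (fun j => ((List.range k).map b).getD j (0, 0)) b k (by
    intro j hj
    simp [List.getD, hj])
  unfold makerClaim policy
  simp only [List.length_map, List.length_range]
  rw [this.1, this.2]

theorem mem_bseq (b : ℕ → Cell) (i : ℕ) (c : Cell) : c ∈ bseq b i ↔ ∃ j, j < i ∧ c = b j := by
  induction i with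
  | zero => simp [bseq]
  | succ i ih =>
    simp only [bseq, Set.mem_insert_iff, ih]
    constructor
    · rintro (h | ⟨j, hj, h⟩)
      · exact ⟨i, by omega, h⟩
      · exact ⟨j, by omega, h⟩
    · rintro ⟨j, hj, h⟩
      rcases Nat.lt_succ_iff_lt_or_eq.1 hj with h' | h'
      · exact Or.inr ⟨j, h', h⟩
      · exact Or.inl (h' ▸ h)

theorem mem_mseq (n : ℕ) (b : ℕ → Cell) (i : ℕ) (c : Cell) :
    c ∈ mseq n b i ↔ ∃ j, j < i ∧ c = makerClaim (policy n) b j := by
  induction i with
  | zero => simp [mseq]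
  | succ i ih =>
    simp only [mseq, Set.mem_insert_iff, ih]
    rw [← makerClaim_policy]
    constructor
    · rintro (h | ⟨j, hj, h⟩)
      · exact ⟨i, by omega, h⟩
      · exact ⟨j, by omega, h⟩
    · rintro ⟨j, hj, h⟩
      rcases Nat.lt_succ_iff_lt_or_eq.1 hj with h' | h'
      · exact Or.inr ⟨j, h', h⟩
      · exact Or.inl (h' ▸ h)

theorem finite_bseq (b : ℕ → Cell) (i : ℕ) : (bseq b i).Finite := by
  induction i with
  | zero => exact Set.finite_empty
  | succ i ih => exact ih.insert _

theorem finite_mseq (n : ℕ) (b : ℕ → Cell) (i : ℕ) : (mseq n b i).Finite := by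
  induction i with
  | zero => exact Set.finite_empty
  | succ i ih => exact ih.insert _

theorem policy_of_W (n : ℕ) (h : W (n + 1) ∅ ∅) :
    ∃ σ : List (ℤ × ℤ) → ℤ × ℤ, ∀ b : ℕ → ℤ × ℤ,
      (∀ k : ℕ, k < n →
        (∀ j : ℕ, j ≤ k → b k ≠ makerClaim σ b j) ∧
        (∀ j : ℕ, j < k → b k ≠ b j)) →
      (∀ k : ℕ, k ≤ n →
        (∀ j : ℕ, j < k → makerClaim σ b k ≠ makerClaim σ b j) ∧
        (∀ j : ℕ, j < k → makerClaim σ b k ≠ b j)) ∧
      ContainsCopy {c | ∃ j : ℕ, j ≤ n ∧ c = makerClaim σ b j} := by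
  refine ⟨policy n, fun b hb => ?_⟩
  have inv : ∀ k, k ≤ n → W (n - k + 1) (mseq n b k) (bseq b k) := by
    intro k
    induction k with
    | zero => intro _; exact h
    | succ k ih =>
      intro hk
      have h1 := (strat_spec (ih (by omega))).2.2 (b k) (by
        change b k ∉ mseq n b (k + 1)
        rw [mem_mseq]
        rintro ⟨j, hj, e⟩
        exact (hb k (by omega)).1 j (by omega) e) (by
        rw [mem_bseq]
        rintro ⟨j, hj, e⟩
        exact (hb k (by omega)).2 j hj e)
      have e : n - k = n - (k + 1) + 1 := by omega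
      have h2 : W (n - k) (mseq n b (k + 1)) (bseq b (k + 1)) := h1
      rwa [e] at h2
  refine ⟨fun k hk => ?_, ?_⟩
  · have h1 := strat_spec (inv k hk)
    rw [← makerClaim_policy] at h1
    exact ⟨fun j hj e => h1.1 ((mem_mseq n b k _).2 ⟨j, hj, e⟩),
      fun j hj e => h1.2.1 ((mem_bseq b k _).2 ⟨j, hj, e⟩)⟩
  · obtain ⟨c, hc1, hc2⟩ := exists_free (finite_mseq n b (n + 1)) (finite_bseq b n)
    have h1 := (strat_spec (inv n le_rfl)).2.2 c hc1 hc2
    have h2 : W (n - n) (mseq n b (n + 1)) (insert c (bseq b n)) := h1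
    rw [Nat.sub_self] at h2
    refine containsCopy_mono ?_ h2
    intro x hx
    obtain ⟨j, hj, e⟩ := (mem_mseq n b _ x).1 hx
    exact ⟨j, by omega, e⟩

end Crest.Agent.R35
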