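import Crest.Agent.R35.Data0
import Crest.Agent.R35.Data1
import Crest.Agent.R35.Data2
import Crest.Agent.R35.Data3

/-! The whole library as one search tree. -/

set_option autoImplicit false
set_option maxRecDepth 100000

namespace Crest.Agent.R35

noncomputable def lib : T :=
 (.node 2000 (.node 1000 (.node 500 (.node 200 (.node 100 t0 t100) (.node 300 t200 (.node 400 t300 t400))) (.node 700 (.node 600 t500 t600) (.node 800 t700 (.node 900 t800 t900)))) (.node 1500 (.node 1200 (.node 1100 t1000 t1100) (.node 1300 t1200 (.node 1400 t1300 t1400))) (.node 1700 (.node 1600 t1500 t1600) (.node 1800 t1700 (.node 1900 t1800 t1900))))) (.node 3000 (.node 2500 (.node 2200 (.node 2100 t2000 t2100) (.node 2300 t2200 (.node 2400 t2300 t2400))) (.node 2700 (.node 2600 t2500 t2600) (.node 2800 t2700 (.node 2900 t2800 t2900)))) (.node 3500 (.node 3200 (.node 3100 t3000 t3100) (.node 3300 t3200 (.node 3400 t3300 t3400))) (.node 3700 (.node 3600 t3500 t3600) (.node 3800 t3700 (.node 3900 t3800 t3900))))))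

end Crest.Agent.R35
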