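import Crest.Agent.R35.Lib

/-! Kernel evaluation of the checker on part of the library. -/

set_option autoImplicit false
set_option maxRecDepth 100000

namespace Crest.Agent.R35

theorem ok1000 : allOk lib t1000 = true := by decide +kernel

theorem ok1100 : allOk lib t1100 = true := by decide +kernel

theorem ok1200 : allOk lib t1200 = true := by decide +kernel

theorem ok1300 : allOk lib t1300 = true := by decide +kernel

theorem ok1400 : allOk lib t1400 = true := by decide +kernel

theorem ok1500 : allOk lib t1500 = true := by decide +kernel

theorem ok1600 : allOk lib t1600 = true := by decide +kernel

theorem ok1700 : allOk lib t1700 = true := by decide +kernel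

theorem ok1800 : allOk lib t1800 = true := by decide +kernel

theorem ok1900 : allOk lib t1900 = true := by decide +kernel

end Crest.Agent.R35
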