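import Crest.Agent.R35.Lib

/-! Kernel evaluation of the checker on part of the library. -/

set_option autoImplicit false
set_option maxRecDepth 100000

namespace Crest.Agent.R35

theorem ok2000 : allOk lib t2000 = true := by decide +kernel

theorem ok2100 : allOk lib t2100 = true := by decide +kernel

theorem ok2200 : allOk lib t2200 = true := by decide +kernel

theorem ok2300 : allOk lib t2300 = true := by decide +kernel

theorem ok2400 : allOk lib t2400 = true := by decide +kernel

theorem ok2500 : allOk lib t2500 = true := by decide +kernel

theorem ok2600 : allOk lib t2600 = true := by decide +kernel

theorem ok2700 : allOk lib t2700 = true := by decide +kernel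

theorem ok2800 : allOk lib t2800 = true := by decide +kernel

theorem ok2900 : allOk lib t2900 = true := by decide +kernel

end Crest.Agent.R35
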