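import Crest.Agent.R35.Lib

/-! Kernel evaluation of the checker on part of the library. -/

set_option autoImplicit false
set_option maxRecDepth 100000

namespace Crest.Agent.R35

theorem ok3000 : allOk lib t3000 = true := by decide +kernel

theorem ok3100 : allOk lib t3100 = true := by decide +kernel

theorem ok3200 : allOk lib t3200 = true := by decide +kernel

theorem ok3300 : allOk lib t3300 = true := by decide +kernel

theorem ok3400 : allOk lib t3400 = true := by decide +kernel

theorem ok3500 : allOk lib t3500 = true := by decide +kernel

theorem ok3600 : allOk lib t3600 = true := by decide +kernel

theorem ok3700 : allOk lib t3700 = true := by decide +kernel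

theorem ok3800 : allOk lib t3800 = true := by decide +kernel

theorem ok3900 : allOk lib t3900 = true := by decide +kernel

end Crest.Agent.R35
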