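import Crest.Agent.R35.Ok0
import Crest.Agent.R35.Ok1
import Crest.Agent.R35.Ok2
import Crest.Agent.R35.Ok3

/-! Maker wins within 21 claims. -/

set_option autoImplicit false
set_option maxRecDepth 100000

namespace Crest.Agent.R35

theorem lib_checked : Checked lib lib :=
 (Checked.node 2000 (Checked.node 1000 (Checked.node 500 (Checked.node 200 (Checked.node 100 (checked_of_allOk _ ok0)
 (checked_of_allOk _ ok100))
 (Checked.node 300 (checked_of_allOk _ ok200)
 (Checked.node 400 (checked_of_allOk _ ok300)
 (checked_of_allOk _ ok400))))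
 (Checked.node 700 (Checked.node 600 (checked_of_allOk _ ok500)
 (checked_of_allOk _ ok600))
 (Checked.node 800 (checked_of_allOk _ ok700)
 (Checked.node 900 (checked_of_allOk _ ok800)
 (checked_of_allOk _ ok900)))))
 (Checked.node 1500 (Checked.node 1200 (Checked.node 1100 (checked_of_allOk _ ok1000)
 (checked_of_allOk _ ok1100))
 (Checked.node 1300 (checked_of_allOk _ ok1200)
 (Checked.node 1400 (checked_of_allOk _ ok1300)
 (checked_of_allOk _ ok1400))))
 (Checked.node 1700 (Checked.node 1600 (checked_of_allOk _ ok1500)
 (checked_of_allOk _ ok1600))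
 (Checked.node 1800 (checked_of_allOk _ ok1700)
 (Checked.node 1900 (checked_of_allOk _ ok1800)
 (checked_of_allOk _ ok1900))))))
 (Checked.node 3000 (Checked.node 2500 (Checked.node 2200 (Checked.node 2100 (checked_of_allOk _ ok2000)
 (checked_of_allOk _ ok2100))
 (Checked.node 2300 (checked_of_allOk _ ok2200)
 (Checked.node 2400 (checked_of_allOk _ ok2300)
 (checked_of_allOk _ ok2400))))
 (Checked.node 2700 (Checked.node 2600 (checked_of_allOk _ ok2500)
 (checked_of_allOk _ ok2600))
 (Checked.node 2800 (checked_of_allOk _ ok2700)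
 (Checked.node 2900 (checked_of_allOk _ ok2800)
 (checked_of_allOk _ ok2900)))))
 (Checked.node 3500 (Checked.node 3200 (Checked.node 3100 (checked_of_allOk _ ok3000)
 (checked_of_allOk _ ok3100))
 (Checked.node 3300 (checked_of_allOk _ ok3200)
 (Checked.node 3400 (checked_of_allOk _ ok3300)
 (checked_of_allOk _ ok3400))))
 (Checked.node 3700 (Checked.node 3600 (checked_of_allOk _ ok3500)
 (checked_of_allOk _ ok3600))
 (Checked.node 3800 (checked_of_allOk _ ok3700)
 (Checked.node 3900 (checked_of_allOk _ ok3800)
 (checked_of_allOk _ ok3900)))))))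

theorem root_ok : rootCheck lib 20 299 0x80000000c0000000e0000000f0000000f8000000fc000000fe000000ff000000ff800000ffc00000ffe00000fff00000fff80000fffc0000fffe0000ffff0000ffff8000ffffc000ffffe000fffff000fffff800000000000000000000000000000000000000000000000000000000000000000000000000
  0x182e [0x81bbc, 0xc81d08, 0xc81e12, 0xca1eaa, 0xca1f18] = true := by decide +kernel

theorem win : W 21 ∅ ∅ := root_sound lib_checked 20 299 _ _ _ (by decide +kernel) root_ok

end Crest.Agent.R35
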