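import Crest.Agent.R35.Lib

/-! Kernel evaluation of the checker on part of the library. -/

set_option autoImplicit false
set_option maxRecDepth 100000

namespace Crest.Agent.R35

theorem ok0 : allOk lib t0 = true := by decide +kernel

theorem ok100 : allOk lib t100 = true := by decide +kernel

theorem ok200 : allOk lib t200 = true := by decide +kernel

theorem ok300 : allOk lib t300 = true := by decide +kernel

theorem ok400 : allOk lib t400 = true := by decide +kernel

theorem ok500 : allOk lib t500 = true := by decide +kernel

theorem ok600 : allOk lib t600 = true := by decide +kernel

theorem ok700 : allOk lib t700 = true := by decide +kernel

theorem ok800 : allOk lib t800 = true := by decide +kernel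

theorem ok900 : allOk lib t900 = true := by decide +kernel

end Crest.Agent.R35
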